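import Mathlib.Analysis.Normed.Module.Convex
import Mathlib.Analysis.Normed.Module.Basic
import Mathlib.Topology.Connected.PathConnected
import Mathlib.Tactic

/-! Monotonicity lemma of a normed space, and: of two closed balls the smaller one minus the larger
one is empty or path-connected. -/

set_option autoImplicit false

namespace Vale.Agent.P305.H273

variable {E : Type*} [NormedAddCommGroup E] [NormedSpace ℝ E]

theorem norm_comb_le (p q : ℝ) (x y : E) (hp : 0 ≤ p) (hq : 0 ≤ q) :
    ‖p • x + q • y‖ ≤ p * ‖x‖ + q * ‖y‖ := by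
  refine (norm_add_le _ _).trans ?_
  rw [norm_smul, norm_smul, Real.norm_of_nonneg hp, Real.norm_of_nonneg hq]

theorem norm_comb_sub_le (p q : ℝ) (x y : E) (hp : 0 ≤ p) (hq : 0 ≤ q) :
    ‖p • x - q • y‖ ≤ p * ‖x‖ + q * ‖y‖ := by
  refine (norm_sub_le _ _).trans ?_
  rw [norm_smul, norm_smul, Real.norm_of_nonneg hp, Real.norm_of_nonneg hq]

/-- Monotonicity lemma: on the sphere the distance from `-s v` grows when one moves towards `v`. -/
theorem mono {w m v : E} {a b s : ℝ} (ha : 0 ≤ a) (hb : 0 ≤ b) (hs : 0 ≤ s)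
    (hm : m = a • w + b • v) (hn : ‖m‖ = ‖w‖) : ‖w + s • v‖ ≤ ‖m + s • v‖ := by
  rcases (add_nonneg hb hs).eq_or_lt with h0 | h0
  · have h1 : s = 0 := by linarith
    rw [h1, zero_smul, add_zero, add_zero, hn]
  obtain ⟨τ, hτ⟩ : ∃ τ, τ = s / (b + s) := ⟨_, rfl⟩
  have hτs : τ * (b + s) = s := by rw [hτ]; field_simp
  have hτ0 : 0 ≤ τ := by rw [hτ]; positivity
  have hτ1 : τ ≤ 1 := by rw [hτ, div_le_one h0]; linarith
  rcases le_or_gt (a * τ) 1 with h1 | h1
  · have e1 : w + s • v = τ • (m + s • v) + (1 - a * τ) • w := by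
      rw [hm]
      linear_combination (norm := module) (-1 : ℝ) • (hτs • v)
    have e2 : m = (1 - τ) • (m + s • v) + (a * τ) • w := by
      rw [hm]
      linear_combination (norm := module) hτs • v
    have n1 := norm_comb_le τ (1 - a * τ) (m + s • v) w hτ0 (by linarith)
    have n2 := norm_comb_le (1 - τ) (a * τ) (m + s • v) w (by linarith) (by positivity)
    rw [← e1] at n1
    rw [← e2, hn] at n2
    linarith
  · have hs0 : 0 < s := by
      rcases hs.eq_or_lt with h | h
      · rw [← h, zero_div] at hτ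
        rw [hτ, mul_zero] at h1
        linarith
      · exact h
    have ha0 : 0 < a := by
      rcases ha.eq_or_lt with h | h
      · rw [← h, zero_mul] at h1
        linarith
      · exact h
    obtain ⟨x, hx⟩ : ∃ x, x = 1 / a := ⟨_, rfl⟩
    obtain ⟨y, hy⟩ : ∃ y, y = b / (a * s) := ⟨_, rfl⟩
    have hxa : x * a = 1 := by rw [hx]; field_simp
    have hys : y * s = x * b := by rw [hy, hx]; field_simp
    have hx0 : 0 ≤ x := by rw [hx]; positivity
    have hy0 : 0 ≤ y := by rw [hy]; positivity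
    have hxy : x + y ≤ 1 := by
      have h2 : (x + y) * (a * s) = s + b := by rw [hx, hy]; field_simp
      have h3 : s + b ≤ a * s := by
        have : 1 * (b + s) ≤ (a * τ) * (b + s) := mul_le_mul_of_nonneg_right h1.le h0.le
        rw [mul_assoc, hτs] at this
        linarith
      by_contra hc
      push Not at hc
      have : 1 * (a * s) < (x + y) * (a * s) := mul_lt_mul_of_pos_right hc (by positivity)
      linarith
    have e1 : w + s • v = x • (m + s • v) + (1 - x - y) • (s • v) := by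
      rw [hm]
      linear_combination (norm := module) (-1 : ℝ) • (hxa • w) + hys • v
    have e2 : s • v = (m + s • v) - m := by abel
    have e3 : w = (x + y) • m - y • (m + s • v) := by
      rw [hm]
      linear_combination (norm := module) (-1 : ℝ) • (hxa • w) + hys • v
    have n1 := norm_comb_le x (1 - x - y) (m + s • v) (s • v) hx0 (by linarith)
    rw [← e1] at n1
    have n2 : ‖s • v‖ ≤ ‖m + s • v‖ + ‖m‖ := by
      calc ‖s • v‖ = ‖(m + s • v) - m‖ := by rw [← e2]
        _ ≤ _ := norm_sub_le _ _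
    have n3 := norm_comb_sub_le (x + y) y m (m + s • v) (by positivity) hy0
    rw [← e3, hn] at n3
    rw [hn] at n2
    have n4 := mul_le_mul_of_nonneg_left n2 (show 0 ≤ 1 - x - y by linarith)
    nlinarith

open Metric Set

/-- Of two closed balls the smaller one minus the larger one is empty or path-connected. -/
theorem ball_diff (c c' : E) {r r' : ℝ} (hr : 0 ≤ r) (h : r ≤ r') :
    closedBall c r \ closedBall c' r' = ∅ ∨
      IsPathConnected (closedBall c r \ closedBall c' r') := by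
  rcases (closedBall c r \ closedBall c' r').eq_empty_or_nonempty with h0 | ⟨p₀, hp₀, hp₀'⟩
  · exact Or.inl h0
  right
  rw [mem_closedBall, dist_eq_norm] at hp₀
  rw [mem_closedBall, dist_eq_norm, not_le] at hp₀'
  -- the distance of the centres
  obtain ⟨u, hu⟩ : ∃ u, u = c - c' := ⟨_, rfl⟩
  have hmem : ∀ z, z ∈ closedBall c r \ closedBall c' r' ↔ ‖z - c‖ ≤ r ∧ r' < ‖z - c + u‖ := by
    intro z
    have e : z - c + u = z - c' := by rw [hu]; abel
    rw [mem_sdiff, mem_closedBall, mem_closedBall, dist_eq_norm, dist_eq_norm, not_le, e]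
  rcases lt_or_ge (r + r') ‖u‖ with hd | hd
  · have e : closedBall c r \ closedBall c' r' = closedBall c r := by
      ext z
      rw [hmem, mem_closedBall, dist_eq_norm]
      refine ⟨fun h => h.1, fun h1 => ⟨h1, ?_⟩⟩
      have h2 : ‖u‖ ≤ ‖z - c + u‖ + ‖z - c‖ := by
        calc ‖u‖ = ‖(z - c + u) - (z - c)‖ := by congr 1; abel
          _ ≤ _ := norm_sub_le _ _
      linarith
    rw [e]
    exact (convex_closedBall c r).isPathConnected ⟨c, mem_closedBall_self hr⟩
  have hsub : r' < r + ‖u‖ := by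
    have : ‖p₀ - c'‖ ≤ ‖p₀ - c‖ + ‖u‖ := by
      calc ‖p₀ - c'‖ = ‖(p₀ - c) + u‖ := by rw [hu]; congr 1; abel
        _ ≤ _ := norm_add_le _ _
    linarith
  have hu0 : 0 < ‖u‖ := by linarith
  have hr0 : 0 < r := by
    rcases hr.eq_or_lt with h1 | h1
    · exfalso
      rw [← h1] at hd hsub
      linarith
    · exact h1
  obtain ⟨v, hv⟩ : ∃ v, v = (r / ‖u‖) • u := ⟨_, rfl⟩
  have hvn : ‖v‖ = r := by
    rw [hv, norm_smul, Real.norm_of_nonneg (by positivity)]
    field_simp
  have huv : u = (‖u‖ / r) • v := by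
    rw [hv, smul_smul]
    have : ‖u‖ / r * (r / ‖u‖) = 1 := by field_simp
    rw [this, one_smul]
  refine ⟨c + v, ?_, ?_⟩
  · rw [hmem]
    have e1 : c + v - c = v := by abel
    rw [e1]
    refine ⟨hvn.le, ?_⟩
    have e2 : v + u = (r / ‖u‖ + 1) • u := by rw [hv, add_smul, one_smul]
    rw [e2, norm_smul, Real.norm_of_nonneg (by positivity)]
    have : (r / ‖u‖ + 1) * ‖u‖ = r + ‖u‖ := by field_simp
    rw [this]
    exact hsub
  intro p hp
  have hp' := (hmem p).1 hp
  obtain ⟨hp1, hp2⟩ := hp'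
  -- first to the sphere
  obtain ⟨t, ht0, ht⟩ : ∃ t : ℝ, 0 ≤ t ∧ ‖p - c + t • u‖ = r := by
    have hc : ContinuousOn (fun t : ℝ => ‖p - c + t • u‖) (Icc 0 (2 * r / ‖u‖)) := by fun_prop
    have hT : 0 ≤ 2 * r / ‖u‖ := by positivity
    have h2 : r ≤ ‖p - c + (2 * r / ‖u‖) • u‖ := by
      have h3 : ‖(2 * r / ‖u‖) • u‖ = 2 * r := by
        rw [norm_smul, Real.norm_of_nonneg hT]
        field_simp
      have h4 : ‖(2 * r / ‖u‖) • u‖ ≤ ‖p - c + (2 * r / ‖u‖) • u‖ + ‖p - c‖ := by
        calc ‖(2 * r / ‖u‖) • u‖ = ‖(p - c + (2 * r / ‖u‖) • u) - (p - c)‖ := by congr 1; abel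
          _ ≤ _ := norm_sub_le _ _
      linarith
    have h1 : ‖p - c + (0 : ℝ) • u‖ ≤ r := by rw [zero_smul, add_zero]; exact hp1
    obtain ⟨t, ht, ht'⟩ := intermediate_value_Icc hT hc ⟨h1, h2⟩
    exact ⟨t, ht.1, ht'⟩
  have hout : ∀ s : ℝ, 0 ≤ s → r' < ‖p - c + s • u + u‖ := by
    intro s hs
    by_contra hcon
    push Not at hcon
    have e : p - c + u = (1 / (1 + s)) • (p - c + s • u + u) + (s / (1 + s)) • (p - c) := by
      have h1 : 1 / (1 + s) + s / (1 + s) = 1 := by field_simp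
      have h2 : (1 / (1 + s)) * (s + 1) = 1 := by field_simp; ring
      linear_combination (norm := module) (-1 : ℝ) • (h1 • (p - c)) - h2 • u
    have h3 := norm_comb_le (1 / (1 + s)) (s / (1 + s)) (p - c + s • u + u) (p - c)
      (by positivity) (by positivity)
    rw [← e] at h3
    have h4 : 1 / (1 + s) * ‖p - c + s • u + u‖ ≤ 1 / (1 + s) * r' :=
      mul_le_mul_of_nonneg_left hcon (by positivity)
    have h5 : s / (1 + s) * ‖p - c‖ ≤ s / (1 + s) * r' :=
      mul_le_mul_of_nonneg_left (hp1.trans h) (by positivity)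
    have h6 : 1 / (1 + s) * r' + s / (1 + s) * r' = r' := by field_simp
    linarith
  obtain ⟨w, hw⟩ : ∃ w, w = p - c + t • u := ⟨_, rfl⟩
  have hwn : ‖w‖ = r := by rw [hw, ht]
  have hwu : r' < ‖w + u‖ := by rw [hw]; exact hout t ht0
  have j1 : JoinedIn (closedBall c r \ closedBall c' r') p (c + w) := by
    refine JoinedIn.ofLine (f := fun θ : ℝ => p + (θ * t) • u) (by fun_prop) (by simp)
      (by simp only [one_mul]; rw [hw]; abel) ?_
    rintro _ ⟨θ, ⟨hθ0, hθ1⟩, rfl⟩
    rw [hmem]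
    have e1 : p + (θ * t) • u - c = p - c + (θ * t) • u := by abel
    rw [e1]
    refine ⟨?_, hout _ (by positivity)⟩
    have e2 : p - c + (θ * t) • u = (1 - θ) • (p - c) + θ • w := by
      rw [hw]; module
    rw [e2]
    have h3 := norm_comb_le (1 - θ) θ (p - c) w (by linarith) hθ0
    rw [hwn] at h3
    have h4 := mul_le_mul_of_nonneg_left hp1 (show 0 ≤ 1 - θ by linarith)
    linarith
  -- now along the sphere
  have hq : ∀ θ ∈ Icc (0 : ℝ) 1, (1 - θ) • w + θ • v ≠ 0 := by
    intro θ ⟨hθ0, hθ1⟩ h0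
    have h1 : (1 - θ) • w = -(θ • v) := eq_neg_of_add_eq_zero_left h0
    have h2 := congrArg norm h1
    rw [norm_neg, norm_smul, norm_smul, hwn, hvn, Real.norm_of_nonneg (by linarith),
      Real.norm_of_nonneg hθ0] at h2
    have h3 : 1 - θ = θ := mul_right_cancel₀ hr0.ne' h2
    have h4 : θ = 1 / 2 := by linarith
    have h5 : w = -v := by
      have h6 : (1 / 2 : ℝ) • (w + v) = 0 := by
        rw [smul_add]
        rw [h4] at h0
        have : (1 : ℝ) - 1 / 2 = 1 / 2 := by norm_num
        rw [this] at h0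
        exact h0
      rcases smul_eq_zero.1 h6 with h7 | h7
      · norm_num at h7
      · exact eq_neg_of_add_eq_zero_left h7
    have e : w + u = (1 - r / ‖u‖) • u := by
      rw [h5, hv]; module
    rw [e, norm_smul, Real.norm_eq_abs] at hwu
    have h8 : |1 - r / ‖u‖| * ‖u‖ = |‖u‖ - r| := by
      rw [← abs_of_pos hu0, ← abs_mul, abs_of_pos hu0]
      congr 1
      field_simp
    rw [h8] at hwu
    rcases lt_abs.1 hwu with h9 | h9 <;> linarith
  have j2 : JoinedIn (closedBall c r \ closedBall c' r') (c + w) (c + v) := by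
    refine JoinedIn.ofLine
      (f := fun θ : ℝ => c + (r / ‖(1 - θ) • w + θ • v‖) • ((1 - θ) • w + θ • v)) ?_ ?_ ?_ ?_
    · refine continuousOn_const.add (ContinuousOn.smul (continuousOn_const.div ?_ ?_) ?_)
      · fun_prop
      · intro θ hθ
        exact (norm_pos_iff.2 (hq θ hθ)).ne'
      · fun_prop
    · simp only [sub_zero, one_smul, zero_smul, add_zero, hwn, div_self hr0.ne']
    · simp only [sub_self, zero_smul, zero_add, one_smul, hvn, div_self hr0.ne']
    rintro _ ⟨θ, hθ, rfl⟩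
    rw [hmem]
    have hn := norm_pos_iff.2 (hq θ hθ)
    obtain ⟨κ, hκ⟩ : ∃ κ, κ = r / ‖(1 - θ) • w + θ • v‖ := ⟨_, rfl⟩
    have hκ0 : 0 ≤ κ := by rw [hκ]; positivity
    have hm : ‖κ • ((1 - θ) • w + θ • v)‖ = r := by
      rw [norm_smul, Real.norm_of_nonneg hκ0, hκ]
      field_simp
    simp only [← hκ]
    have e1 : c + κ • ((1 - θ) • w + θ • v) - c = κ • ((1 - θ) • w + θ • v) := by abel
    rw [e1]
    refine ⟨hm.le, hwu.trans_le ?_⟩
    have := mono (w := w) (m := κ • ((1 - θ) • w + θ • v)) (v := v) (a := κ * (1 - θ))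
      (b := κ * θ) (s := ‖u‖ / r) (mul_nonneg hκ0 (by linarith [hθ.2])) (mul_nonneg hκ0 hθ.1)
      (by positivity) (by rw [smul_add, smul_smul, smul_smul]) (by rw [hm, hwn])
    rwa [← huv] at this
  exact (j1.trans j2).symm

end Vale.Agent.P305.H273
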