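import Vale.Agent.P305.R2.H273.ConvexDefs
import Vale.Agent.P305.Classes
import Vale.Agent.P305.Bdl.B1
import Mathlib.Analysis.Complex.Basic
import Mathlib.Analysis.Convex.Topology
import Mathlib.Tactic

/-! Disjointness graphs of compact convex sets of the plane are as hard as all graphs. -/

set_option autoImplicit false

namespace Vale.Agent.P305.H273

open Vale.Agent.P305

/-- inner product of the plane -/
def dt (z p : ℂ) : ℝ := z.re * p.re + z.im * p.im

theorem dt_comm (z p : ℂ) : dt z p = dt p z := by unfold dt; ring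

theorem dt_lt_one {p q : ℂ} (hp : dt p p = 1) (hq : dt q q = 1) (h : p ≠ q) : dt p q < 1 := by
  by_contra hc
  push Not at hc
  apply h
  unfold dt at *
  have h1 : (p.re - q.re) ^ 2 + (p.im - q.im) ^ 2 ≤ 0 := by nlinarith
  have h2 : p.re - q.re = 0 := by
    have := sq_nonneg (p.re - q.re); have := sq_nonneg (p.im - q.im)
    exact pow_eq_zero_iff (two_ne_zero) |>.1 (by linarith)
  have h3 : p.im - q.im = 0 := by
    have := sq_nonneg (p.re - q.re); have := sq_nonneg (p.im - q.im)
    exact pow_eq_zero_iff (two_ne_zero) |>.1 (by linarith)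
  exact Complex.ext (by linarith) (by linarith)

theorem dt_gt {p q : ℂ} (hp : dt p p = 1) (hq : dt q q = 1) (h : q ≠ -p) : -1 < dt p q := by
  have h1 := dt_lt_one (p := -p) (q := q) (by simpa [dt] using hp) hq (Ne.symm h)
  have h2 : dt (-p) q = - dt p q := by simp [dt]; ring
  linarith

/-- the tangent at `p`, cut to a disc -/
def tang (R : ℝ) (p : ℂ) : Set ℂ := {z | dt z p = 1} ∩ Metric.closedBall 0 R

theorem convex_halfline (p : ℂ) : Convex ℝ {z : ℂ | dt z p = 1} := by
  intro x hx y hy a b _ _ hab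
  simp only [Set.mem_ofPred_eq] at *
  have : dt (a • x + b • y) p = a * dt x p + b * dt y p := by
    simp [dt]; ring
  rw [this, hx, hy, mul_one, mul_one, hab]

theorem convex_half (p : ℂ) : Convex ℝ {z : ℂ | dt z p < 1} := by
  intro x hx y hy a b ha hb hab
  simp only [Set.mem_ofPred_eq] at *
  have : dt (a • x + b • y) p = a * dt x p + b * dt y p := by
    simp [dt]; ring
  rw [this]
  rcases ha.eq_or_lt with h | h
  · have hb1 : b = 1 := by linarith
    rw [← h, hb1]; linarith
  · nlinarith

theorem isClosed_line (p : ℂ) : IsClosed {z : ℂ | dt z p = 1} := by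
  have : Continuous fun z : ℂ => dt z p := by
    unfold dt
    fun_prop
  exact isClosed_eq this continuous_const

theorem tang_good {R : ℝ} (hR : 1 ≤ R) {p : ℂ} (hp : dt p p = 1) :
    Convex ℝ (tang R p) ∧ IsCompact (tang R p) ∧ p ∈ tang R p := by
  refine ⟨(convex_halfline p).inter (convex_closedBall 0 R),
    (isCompact_closedBall 0 R).inter_left (isClosed_line p), hp, ?_⟩
  rw [mem_closedBall_zero_iff]
  have h1 : ‖p‖ ^ 2 = 1 := by
    rw [← Complex.normSq_eq_norm_sq, Complex.normSq_apply]
    exact hp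
  have h2 : ‖p‖ = 1 := by
    have h0 := norm_nonneg p
    nlinarith
  linarith

/-- the common point of two tangents -/
noncomputable def common (p q : ℂ) : ℂ := (1 / (1 + dt p q) : ℝ) • (p + q)

theorem dt_smul_add (c : ℝ) (p q w : ℂ) : dt (c • (p + q)) w = c * (dt p w + dt q w) := by
  simp only [dt, Complex.smul_re, Complex.smul_im, Complex.add_re, Complex.add_im, smul_eq_mul]
  ring

theorem dt_common {p q : ℂ} (hp : dt p p = 1) (hq : dt q q = 1) (h : q ≠ -p) :
    dt (common p q) p = 1 ∧ dt (common p q) q = 1 := by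
  have h1 := dt_gt hp hq h
  have h2 : (1 : ℝ) + dt p q ≠ 0 := by linarith
  have e : ∀ w, dt (common p q) w = (1 / (1 + dt p q)) * (dt p w + dt q w) := by
    intro w
    exact dt_smul_add _ _ _ _
  rw [e, e, hp, hq, dt_comm q p]
  constructor
  · field_simp
  · rw [add_comm (dt p q) 1]; field_simp

/-- The construction. -/
theorem coconvex_of {n : ℕ} {G : SimpleGraph (Fin n)} (I : Set (Fin n)) (P : Fin n → ℂ)
    (hI : ∀ u ∈ I, ∀ v ∈ I, ¬ G.Adj u v) (h1 : ∀ v, v ∉ I → dt (P v) (P v) = 1)
    (h2 : ∀ v, v ∉ I → ∀ w, w ∉ I → v ≠ w → P v ≠ P w)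
    (h3 : ∀ v, v ∉ I → ∀ w, w ∉ I → v ≠ w → (G.Adj v w ↔ P w = - P v)) :
    IsCoConvexSet G := by
  classical
  obtain ⟨R, hR⟩ : ∃ R : ℝ, R = 1 + ∑ v, ∑ w, ‖common (P v) (P w)‖ := ⟨_, rfl⟩
  have hR1 : 1 ≤ R := by
    rw [hR]
    have : 0 ≤ ∑ v, ∑ w, ‖common (P v) (P w)‖ :=
      Finset.sum_nonneg fun v _ => Finset.sum_nonneg fun w _ => norm_nonneg _
    linarith
  have hRc : ∀ v w, ‖common (P v) (P w)‖ ≤ R := by
    intro v w
    rw [hR]
    have k1 : ‖common (P v) (P w)‖ ≤ ∑ w, ‖common (P v) (P w)‖ :=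
      Finset.single_le_sum (f := fun w => ‖common (P v) (P w)‖) (fun w _ => norm_nonneg _)
        (Finset.mem_univ w)
    have k2 : ∑ w, ‖common (P v) (P w)‖ ≤ ∑ v, ∑ w, ‖common (P v) (P w)‖ :=
      Finset.single_le_sum (f := fun v => ∑ w, ‖common (P v) (P w)‖)
        (fun v _ => Finset.sum_nonneg fun w _ => norm_nonneg _) (Finset.mem_univ v)
    linarith
  let K : Fin n → Set ℂ := fun v => convexHull ℝ ({0} ∪ P '' {w | w ∉ I ∧ ¬ G.Adj v w})
  have hK0 : ∀ v, (0 : ℂ) ∈ K v := fun v => subset_convexHull ℝ _ (Or.inl rfl)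
  have key : ∀ a, a ∈ I → ∀ b, b ∉ I → (G.Adj a b ↔ Disjoint (K a) (tang R (P b))) := by
    intro a _ b hb
    constructor
    · intro hab
      rw [Set.disjoint_left]
      intro z hz hz'
      have hsub : K a ⊆ {z : ℂ | dt z (P b) < 1} := by
        refine convexHull_min ?_ (convex_half _)
        rintro y (hy | ⟨w, ⟨hw, hw'⟩, rfl⟩)
        · rw [Set.mem_singleton_iff] at hy
          rw [hy]
          simp [dt]
        · refine dt_lt_one (h1 w hw) (h1 b hb) (h2 w hw b hb ?_)
          rintro rfl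
          exact hw' hab
      have k1 := hsub hz
      have k2 := hz'.1
      simp only [Set.mem_ofPred_eq] at k1 k2
      linarith
    · intro hd
      by_contra hab
      exact Set.disjoint_left.1 hd (subset_convexHull ℝ _ (Or.inr ⟨b, ⟨hb, hab⟩, rfl⟩))
        (tang_good hR1 (h1 b hb)).2.2
  refine ⟨fun v => if v ∈ I then K v else tang R (P v), fun v => ?_, fun u v huv => ?_⟩
  · by_cases hv : v ∈ I
    · simp only [if_pos hv]
      refine ⟨convex_convexHull ℝ _, ?_, ⟨0, hK0 v⟩⟩
      exact (Set.toFinite _).isCompact_convexHull (𝕜 := ℝ)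
    · simp only [if_neg hv]
      have := tang_good hR1 (h1 v hv)
      exact ⟨this.1, this.2.1, ⟨_, this.2.2⟩⟩
  · by_cases hu : u ∈ I <;> by_cases hv : v ∈ I
    · simp only [if_pos hu, if_pos hv]
      exact ⟨fun h => absurd h (hI u hu v hv), fun h =>
        absurd (hK0 v) (Set.disjoint_left.1 h (hK0 u))⟩
    · simp only [if_pos hu, if_neg hv]
      exact key u hu v hv
    · simp only [if_neg hu, if_pos hv]
      rw [G.adj_comm, key v hv u hu, disjoint_comm]
    · simp only [if_neg hu, if_neg hv]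
      rw [h3 u hu v hv huv]
      constructor
      · intro h
        rw [Set.disjoint_left]
        intro z hz hz'
        have k1 := hz.1
        have k2 := hz'.1
        simp only [Set.mem_ofPred_eq] at k1 k2
        rw [h] at k2
        have k3 : dt z (-P u) = - dt z (P u) := by simp [dt]; ring
        rw [k3, k1] at k2
        norm_num at k2
      · intro hd
        by_contra hne
        have hc := dt_common (h1 u hu) (h1 v hv) hne
        have hn : common (P u) (P v) ∈ Metric.closedBall (0 : ℂ) R := by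
          rw [mem_closedBall_zero_iff]
          exact hRc u v
        exact Set.disjoint_left.1 hd ⟨hc.1, hn⟩ ⟨hc.2, hn⟩

/-- unit vectors of the right half plane -/
noncomputable def uv (k : ℕ) : ℂ := ⟨1 / √(1 + (k : ℝ) ^ 2), k / √(1 + (k : ℝ) ^ 2)⟩

theorem uv_unit (k : ℕ) : dt (uv k) (uv k) = 1 := by
  have h0 : (0 : ℝ) < 1 + (k : ℝ) ^ 2 := by positivity
  have h1 : √(1 + (k : ℝ) ^ 2) * √(1 + (k : ℝ) ^ 2) = 1 + (k : ℝ) ^ 2 :=
    Real.mul_self_sqrt h0.le
  have h2 : √(1 + (k : ℝ) ^ 2) ≠ 0 := (Real.sqrt_pos.2 h0).ne'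
  simp only [dt, uv]
  rw [div_mul_div_comm, div_mul_div_comm, h1, ← add_div, div_eq_one_iff_eq h0.ne']
  ring

theorem uv_re_pos (k : ℕ) : 0 < (uv k).re := by
  simp only [uv]
  positivity

theorem uv_inj {k l : ℕ} (h : uv k = uv l) : k = l := by
  have h1 : (k : ℝ) = (uv k).im / (uv k).re := by
    simp only [uv]
    have : √(1 + (k : ℝ) ^ 2) ≠ 0 := (Real.sqrt_pos.2 (by positivity)).ne'
    field_simp
  have h2 : (l : ℝ) = (uv l).im / (uv l).re := by
    simp only [uv]
    have : √(1 + (l : ℝ) ^ 2) ≠ 0 := (Real.sqrt_pos.2 (by positivity)).ne'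
    field_simp
  rw [h, ← h2] at h1
  exact_mod_cast h1

/-- A graph with an independent set outside which every vertex has exactly one neighbour is the
disjointness graph of compact convex sets of the plane. -/
theorem coconvex_of_matched {n : ℕ} {G : SimpleGraph (Fin n)} (I : Set (Fin n))
    (hI : ∀ u ∈ I, ∀ v ∈ I, ¬ G.Adj u v) (hm : ∀ u ∉ I, ∃! v, v ∉ I ∧ G.Adj u v) :
    IsCoConvexSet G := by
  classical
  have hex : ∀ u, ∃ v, u ∉ I → (v ∉ I ∧ G.Adj u v) ∧ ∀ w, w ∉ I → G.Adj u w → w = v := by
    intro u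
    by_cases hu : u ∈ I
    · exact ⟨u, fun h => absurd hu h⟩
    · obtain ⟨v, hv, hv'⟩ := hm u hu
      exact ⟨v, fun _ => ⟨hv, fun w hw hw' => hv' w ⟨hw, hw'⟩⟩⟩
  choose m hm' using hex
  have mI : ∀ u, u ∉ I → m u ∉ I := fun u hu => (hm' u hu).1.1
  have mA : ∀ u, u ∉ I → G.Adj u (m u) := fun u hu => (hm' u hu).1.2
  have mU : ∀ u, u ∉ I → ∀ w, w ∉ I → G.Adj u w → w = m u := fun u hu => (hm' u hu).2
  have mm : ∀ u, u ∉ I → m (m u) = u := fun u hu =>
    (mU (m u) (mI u hu) u hu (mA u hu).symm).symm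
  have mne : ∀ u, u ∉ I → m u ≠ u := fun u hu => (mA u hu).ne'
  let P : Fin n → ℂ := fun v => if v < m v then uv v else - uv (m v)
  have hpos : ∀ v, v < m v → P v = uv v := fun v h => if_pos h
  have hneg : ∀ v, ¬ v < m v → P v = - uv (m v) := fun v h => if_neg h
  refine coconvex_of I P hI ?_ ?_ ?_
  · intro v _
    by_cases h : v < m v
    · rw [hpos v h]; exact uv_unit _
    · rw [hneg v h]
      have := uv_unit (m v)
      simpa [dt] using this
  · intro v hv w hw hvw h
    by_cases h1 : v < m v <;> by_cases h2 : w < m w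
    · rw [hpos v h1, hpos w h2] at h
      exact hvw (Fin.ext (uv_inj h))
    · rw [hpos v h1, hneg w h2] at h
      have k1 := uv_re_pos v
      have k2 := uv_re_pos (m w)
      rw [h] at k1
      simp at k1
      linarith
    · rw [hneg v h1, hpos w h2] at h
      have k1 := uv_re_pos (m v)
      have k2 := uv_re_pos w
      rw [← h] at k2
      simp at k2
      linarith
    · rw [hneg v h1, hneg w h2] at h
      have h3 : m v = m w := Fin.ext (uv_inj (neg_injective h))
      apply hvw
      rw [← mm v hv, ← mm w hw, h3]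
  · intro v hv w hw hvw
    constructor
    · intro hadj
      have e : w = m v := mU v hv w hw hadj
      have e' : m w = v := by rw [e, mm v hv]
      rcases lt_or_gt_of_ne hvw with h | h
      · have h1 : v < m v := by rw [← e]; exact h
        have h2 : ¬ w < m w := by rw [e']; exact not_lt.2 h.le
        rw [hpos v h1, hneg w h2, e']
      · have h1 : ¬ v < m v := by rw [← e]; exact not_lt.2 h.le
        have h2 : w < m w := by rw [e']; exact h
        rw [hneg v h1, hpos w h2, neg_neg, e]
    · intro h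
      by_cases h1 : v < m v <;> by_cases h2 : w < m w
      · rw [hpos v h1, hpos w h2] at h
        have k1 := uv_re_pos v
        have k2 := uv_re_pos w
        rw [h] at k2
        simp at k2
        linarith
      · rw [hpos v h1, hneg w h2] at h
        have h3 : m w = v := Fin.ext (uv_inj (neg_injective h))
        have := mA w hw
        rw [h3] at this
        exact this.symm
      · rw [hneg v h1, hpos w h2, neg_neg] at h
        have h3 : w = m v := Fin.ext (uv_inj h)
        rw [h3]
        exact mA v hv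
      · rw [hneg v h1, hneg w h2, neg_neg] at h
        have k1 := uv_re_pos (m v)
        have k2 := uv_re_pos (m w)
        rw [← h] at k1
        simp at k1
        linarith

theorem comp3_coconvex {n : ℕ} {G : SimpleGraph (Fin n)} (h : Comp3 n G) : IsCoConvexSet G := by
  obtain ⟨-, I, hI, hm⟩ := h
  exact coconvex_of_matched I hI hm

/-- Maximum matching in disjointness graphs of convex sets of the plane is as hard as in all
graphs. -/
theorem all_of_coconvex (T : ℕ → ℕ → ℕ)
    (h : ∃ P, Solves P (fun _ G => IsCoConvexSet G) fun n G => T n G.edgeSet.ncard) :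
    ∃ P C, Solves P (fun _ _ => True) fun n G =>
      C * (T (n + 2 * G.edgeSet.ncard) (5 * G.edgeSet.ncard) + n + G.edgeSet.ncard + 1) := by
  obtain ⟨P, hP⟩ := h
  exact all_of_comp3 T ⟨P, hP.mono (fun _ _ h => comp3_coconvex h) fun _ _ _ => le_rfl⟩

/-- Almost-linear time on disjointness graphs of convex sets of the plane is the same as on all
graphs. -/
theorem almostLinear_coconvex :
    AlmostLinear (fun _ G => IsCoConvexSet G) ↔ AlmostLinear fun _ _ => True := by
  constructor
  · rintro ⟨P, T, hP, hT⟩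
    exact almostLinear_comp3.1
      ⟨P, T, hP.mono (fun _ _ h => comp3_coconvex h) fun _ _ _ => le_rfl, hT⟩
  · rintro ⟨P, T, hP, hT⟩
    exact ⟨P, T, hP.mono (fun _ _ _ => trivial) fun _ _ _ => le_rfl, hT⟩

end Vale.Agent.P305.H273
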