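import Mathlib.Analysis.Complex.Basic
import Mathlib.Analysis.Convex.Basic
import Mathlib.Combinatorics.SimpleGraph.Basic

/-! Disjointness graphs of compact convex sets of the plane: definition. -/

set_option autoImplicit false

namespace Vale.Agent.P305.H273

/-- `G` is the disjointness graph of compact convex sets of the plane: two different vertices are
adjacent iff their sets are disjoint. -/
def IsCoConvexSet {V : Type} (G : SimpleGraph V) : Prop :=
  ∃ S : V → Set ℂ, (∀ v, Convex ℝ (S v) ∧ IsCompact (S v) ∧ (S v).Nonempty) ∧
    ∀ u v, u ≠ v → (G.Adj u v ↔ Disjoint (S u) (S v))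

end Vale.Agent.P305.H273
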