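import Vale.Agent.P305.R2.H52.Class
import Vale.Agent.P305.R2.H273.BallDiff
import Vale.Agent.P305.H529.Defs
import Mathlib.Analysis.Convex.Contractible
import Mathlib.LinearAlgebra.Complex.FiniteDimensional

/-! Closed balls of a norm on a plane form a family of pseudo-discs: complements of disk graphs
belong to the class `IsCoPseudo`. -/

set_option autoImplicit false

namespace Vale.Agent.P305.H273

open Vale.Agent.P305.H52 Vale.Agent.P305.H529 Metric

theorem jo_of_pathConnected {a : Set ℂ} (h : a = ∅ ∨ IsPathConnected a) : Jo a := by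
  rintro x hx y hy
  rcases h with h | h
  · rw [h] at hx
    exact absurd hx (Set.notMem_empty x)
  · exact h.joinedIn x hx y hy

theorem jo_of_convex {a : Set ℂ} (h : Convex ℝ a) : Jo a :=
  jo_of_pathConnected (a.eq_empty_or_nonempty.imp id fun h0 => h.isPathConnected h0)

/-- A convex set has no holes. -/
theorem holeFree_of_convex {a : Set ℂ} (h : Convex ℝ a) (h0 : a.Nonempty) : HoleFree a := by
  obtain ⟨x, hx⟩ := h0
  have : ContractibleSpace a := (h.starConvex hx).contractibleSpace ⟨x, hx⟩
  exact Or.inr (inferInstanceAs (SimplyConnectedSpace a))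

variable {E : Type*} [NormedAddCommGroup E] [NormedSpace ℝ E]

theorem convex_image_ball (e : E ≃L[ℝ] ℂ) (c : E) (r : ℝ) : Convex ℝ (e '' closedBall c r) :=
  (convex_closedBall c r).linear_image e.toLinearEquiv.toLinearMap

theorem nonempty_image_ball (e : E ≃L[ℝ] ℂ) (c : E) {r : ℝ} (hr : 0 ≤ r) :
    (e '' closedBall c r).Nonempty := ⟨e c, c, mem_closedBall_self hr, rfl⟩

theorem jo_ball_diff (e : E ≃L[ℝ] ℂ) (c c' : E) {r r' : ℝ} (hr : 0 ≤ r) (h : r ≤ r') :
    Jo (e '' closedBall c r \ e '' closedBall c' r') := by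
  apply jo_of_pathConnected
  rw [← Set.image_sdiff e.injective]
  rcases ball_diff c c' hr h with h1 | h1
  · left
    rw [h1, Set.image_empty]
  · exact Or.inr (h1.image e.continuous)

/-- Two closed balls of a norm in the plane are a tame pair. -/
theorem tame_ball (e : E ≃L[ℝ] ℂ) (c c' : E) {r r' : ℝ} (hr : 0 ≤ r) (hr' : 0 ≤ r') :
    Tame (e '' closedBall c r) (e '' closedBall c' r') := by
  rcases le_total r r' with h | h
  · exact Or.inr (Or.inl ⟨holeFree_of_convex (convex_image_ball e c r) (nonempty_image_ball e c hr),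
      jo_ball_diff e c c' hr h⟩)
  · exact Or.inr (Or.inr (Or.inl ⟨holeFree_of_convex (convex_image_ball e c' r')
      (nonempty_image_ball e c' hr'), jo_ball_diff e c' c hr' h⟩))

/-- Complements of disk graphs of a norm are disjointness graphs of families of pseudo-discs. -/
theorem codisk_copseudo {V : Type} {G : SimpleGraph V} (h : IsCoDisk G) : IsCoPseudo G := by
  obtain ⟨E, i1, i2, c, r, hE, hr, hadj⟩ := h
  have hfin : FiniteDimensional ℝ E := FiniteDimensional.of_finrank_pos (by omega)
  let e : E ≃L[ℝ] ℂ := (LinearEquiv.ofFinrankEq E ℂ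
    (by rw [hE, Complex.finrank_real_complex])).toContinuousLinearEquiv
  refine ⟨fun v => e '' closedBall (c v) (r v), fun v => jo_of_convex (convex_image_ball e _ _),
    fun u v _ _ => tame_ball e _ _ (hr u) (hr v), fun u v huv => ?_⟩
  rw [hadj u v huv, Set.disjoint_image_iff e.injective]

end Vale.Agent.P305.H273
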