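import Vale.Agent.P305.R2.H52.Final

/-! The packing number after the deletion of edges; disjointness graphs of products of plane sets
with boxes. -/

set_option autoImplicit false

namespace Vale.Agent.P305.H273

open Vale.Agent.P305 Vale.Agent.P305.H52 Vale.Agent.P305.H529 Vale.Agent.P305.H287

theorem bip_of_edges {V : Type} (G H : SimpleGraph V) (S : Set V)
    (h : ∀ u ∈ S, ∀ v ∈ S, G.Adj u v → H.Adj u v) (hb : (H.induce S).IsBipartite) :
    (G.induce S).IsBipartite := by
  obtain ⟨col⟩ := hb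
  exact ⟨SimpleGraph.Coloring.mk (fun v => col v)
    (fun {u v} huv => col.valid (h _ u.2 _ v.2 huv))⟩

theorem split_edges {n k : ℕ} (G H : SimpleGraph (Fin n)) (U : Set (Fin n)) (c : ℕ)
    (hHG : H ≤ G)
    (hc : ∀ (k : ℕ) (a b : Fin k → Fin n),
      (∀ i, a i ∈ U ∧ b i ∈ U ∧ G.Adj (a i) (b i) ∧ ¬ H.Adj (a i) (b i)) →
      (∀ i j, i ≠ j → ∀ u ∈ ({a i, b i} : Set (Fin n)), ∀ v ∈ ({a j, b j} : Set (Fin n)),
        u ≠ v ∧ ¬ G.Adj u v) → k ≤ c)
    (S : Fin k → Set (Fin n)) (hSU : ∀ i, S i ⊆ U) (hS : IsOddPacking G k S) :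
    k ≤ c + oddPackingIn H U := by
  classical
  let A : Finset (Fin k) :=
    Finset.univ.filter fun i => ∃ u ∈ S i, ∃ v ∈ S i, G.Adj u v ∧ ¬ H.Adj u v
  have hA : A.card ≤ c := by
    have h1 : ∀ i : A, ∃ u ∈ S i, ∃ v ∈ S i, G.Adj u v ∧ ¬ H.Adj u v := by
      rintro ⟨i, hi⟩
      exact (Finset.mem_filter.1 hi).2
    choose f hf g hg hfg using h1
    let e := A.equivFin
    refine hc A.card (fun i => f (e.symm i)) (fun i => g (e.symm i))
      (fun i => ⟨hSU _ (hf _), hSU _ (hg _), (hfg _).1, (hfg _).2⟩) ?_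
    intro i j hij u hu v hv
    have hne : ((e.symm i : A) : Fin k) ≠ (e.symm j : A) := fun h =>
      hij (e.symm.injective (Subtype.ext h))
    have hu' : u ∈ S (e.symm i : A) := by
      rcases hu with rfl | hu
      · exact hf _
      · rw [Set.mem_singleton_iff] at hu
        subst hu
        exact hg _
    have hv' : v ∈ S (e.symm j : A) := by
      rcases hv with rfl | hv
      · exact hf _
      · rw [Set.mem_singleton_iff] at hv
        subst hv
        exact hg _
    exact hS.2 _ _ hne u hu' v hv'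
  have hB : Aᶜ.card ≤ oddPackingIn H U := by
    let e := (Aᶜ).equivFin
    refine le_oddPackingIn (S := fun i => S (e.symm i)) (fun i => hSU _) ⟨fun i hbip => ?_,
      fun i j hij u hu v hv => ?_⟩
    · have h2 := (e.symm i).2
      rw [Finset.mem_compl] at h2
      refine hS.1 (e.symm i) (bip_of_edges G H _ ?_ hbip)
      intro u hu v hv hadj
      by_contra hn
      exact h2 (Finset.mem_filter.2 ⟨Finset.mem_univ _, u, hu, v, hv, hadj, hn⟩)
    · have h3 := hS.2 _ _ (fun h => hij (e.symm.injective (Subtype.ext h))) u hu v hv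
      exact ⟨h3.1, fun h => h3.2 (hHG h)⟩
  have hcard := Finset.card_add_card_compl A
  rw [Fintype.card_fin] at hcard
  omega

/-- Deleting a set of edges, those of `G` which are not edges of `H`: the packing number drops by at
most the size of an induced matching of `G` which consists of deleted edges. -/
theorem in_le_edges {n : ℕ} (G H : SimpleGraph (Fin n)) (U : Set (Fin n)) (c : ℕ) (hHG : H ≤ G)
    (hc : ∀ (k : ℕ) (a b : Fin k → Fin n),
      (∀ i, a i ∈ U ∧ b i ∈ U ∧ G.Adj (a i) (b i) ∧ ¬ H.Adj (a i) (b i)) →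
      (∀ i j, i ≠ j → ∀ u ∈ ({a i, b i} : Set (Fin n)), ∀ v ∈ ({a j, b j} : Set (Fin n)),
        u ≠ v ∧ ¬ G.Adj u v) → k ≤ c) :
    oddPackingIn G U ≤ c + oddPackingIn H U := by
  obtain ⟨S, hSU, hS⟩ := exists_oddPackingIn G U
  exact split_edges G H U c hHG hc S hSU hS

/-- Adding the edges of `d` graphs without two independent edges raises the packing number by at
most `d`. -/
theorem in_le_union {n d : ℕ} (G H : SimpleGraph (Fin n)) (I : Fin d → SimpleGraph (Fin n))
    (U : Set (Fin n)) (hI : ∀ j, NoTwoEdges (I j))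
    (hadj : ∀ a b, G.Adj a b ↔ H.Adj a b ∨ ∃ j, (I j).Adj a b) :
    oddPackingIn G U ≤ d + oddPackingIn H U := by
  refine in_le_edges G H U d (fun a b h => (hadj a b).2 (Or.inl h)) ?_
  intro k a b h1 h2
  have h3 : ∀ i, ∃ j, (I j).Adj (a i) (b i) := fun i =>
    ((hadj _ _).1 (h1 i).2.2.1).resolve_left (h1 i).2.2.2
  choose κ h using h3
  have hinj : Function.Injective κ := by
    intro i j hij
    by_contra hne
    have hx : ∀ x ∈ ({a i, b i} : Set (Fin n)), ∀ y ∈ ({a j, b j} : Set (Fin n)),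
        x ≠ y ∧ ¬ (I (κ i)).Adj x y := fun x hx y hy =>
      ⟨(h2 i j hne x hx y hy).1, fun h1 =>
        (h2 i j hne x hx y hy).2 ((hadj x y).2 (Or.inr ⟨_, h1⟩))⟩
    have k1 := h i
    have k2 := h j
    rw [← hij] at k2
    have aa := hx (a i) (by simp) (a j) (by simp)
    have ab := hx (a i) (by simp) (b j) (by simp)
    have ba := hx (b i) (by simp) (a j) (by simp)
    have bb := hx (b i) (by simp) (b j) (by simp)
    rcases hI (κ i) _ _ _ _ k1 k2 with h3 | h3 | h3 | h3 | h3 | h3 | h3 | h3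
    · exact aa.1 h3
    · exact ab.1 h3
    · exact ba.1 h3
    · exact bb.1 h3
    · exact aa.2 h3
    · exact ab.2 h3
    · exact ba.2 h3
    · exact bb.2 h3
  simpa using Fintype.card_le_of_injective κ hinj

/-- Products of pseudo-discs of the plane with boxes of `d`-dimensional space. -/
theorem cotower_prod {V : Type} {d : ℕ} {G : SimpleGraph V} (F : V → Set ℂ) (l u : V → Fin d → ℝ)
    (hF : ∀ v, Jo (F v)) (ht : ∀ a b, a ≠ b → (F a ∩ F b).Nonempty → Tame (F a) (F b))
    (hlu : ∀ v, l v ≤ u v) (hadj : ∀ a b, a ≠ b → (G.Adj a b ↔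
      Disjoint (F a ×ˢ Set.Icc (l a) (u a)) (F b ×ˢ Set.Icc (l b) (u b)))) : IsCoTower d G := by
  let H : SimpleGraph V :=
    { Adj := fun a b => a ≠ b ∧ Disjoint (F a) (F b)
      symm := ⟨fun a b h => ⟨h.1.symm, h.2.symm⟩⟩
      loopless := ⟨fun a h => h.1 rfl⟩ }
  let I : Fin d → SimpleGraph V := fun j =>
    { Adj := fun a b => u a j < l b j ∨ u b j < l a j
      symm := ⟨fun a b h => h.symm⟩
      loopless := ⟨fun a h => by
        have := hlu a j
        rcases h with h | h <;> linarith⟩ }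
  refine ⟨H, I, Or.inr (Or.inl ⟨F, hF, ht, fun a b hab => ⟨fun h => h.2, fun h => ⟨hab, h⟩⟩⟩),
    fun j a b c e hab hce => ?_, fun a b => ?_⟩
  · have key : ∀ a b c e : V, u a j < l b j → u c j < l e j →
        (I j).Adj a e ∨ (I j).Adj b c := by
      intro a b c e h1 h2
      rcases lt_or_ge (u a j) (l e j) with h3 | h3
      · exact Or.inl (Or.inl h3)
      · exact Or.inr (Or.inr (by linarith))
    rcases hab with h1 | h1 <;> rcases hce with h2 | h2
    · rcases key a b c e h1 h2 with h | h <;> tauto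
    · rcases key a b e c h1 h2 with h | h <;> tauto
    · rcases key b a c e h1 h2 with h | h <;> tauto
    · rcases key b a e c h1 h2 with h | h <;> tauto
  · by_cases hab : a = b
    · subst hab
      simp
    rw [hadj a b hab, Set.disjoint_prod]
    constructor
    · rintro (h | h)
      · exact Or.inl ⟨hab, h⟩
      · exact Or.inr (box_disjoint (hlu a) (hlu b) h)
    · rintro (h | ⟨j, h⟩)
      · exact Or.inl h.2
      · right
        by_contra hd
        have h1 := box_meet hd j
        have h2 := box_meet (fun h => hd h.symm) j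
        rcases h with h | h <;> linarith

/-- Pairwise non-adjacent non-bipartite sets of the disjointness graph of towers. -/
theorem tower_packing {V : Type} [Finite V] {d k : ℕ} (G : SimpleGraph V) (hG : IsCoTower d G)
    (S : Fin k → Set V) (hS : ∀ i, ¬ (G.induce (S i)).IsBipartite)
    (hST : ∀ i j, i ≠ j → ∀ u ∈ S i, ∀ v ∈ S j, u ≠ v ∧ ¬ G.Adj u v) : k ≤ d + 1 := by
  classical
  obtain ⟨H, I, hH, hI, hadj⟩ := hG
  let A : Finset (Fin k) :=
    Finset.univ.filter fun i => ∃ (a b : V) (j : Fin d), a ∈ S i ∧ b ∈ S i ∧ (I j).Adj a b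
  have hA : A.card ≤ d := by
    have key : ∀ i : A, ∃ (a b : V) (j : Fin d), a ∈ S i ∧ b ∈ S i ∧ (I j).Adj a b := by
      rintro ⟨i, hi⟩
      exact (Finset.mem_filter.1 hi).2
    choose a b κ ha hb h using key
    have hinj : Function.Injective κ := by
      intro i j hij
      by_contra hne
      have hne' : (i : Fin k) ≠ j := fun h => hne (Subtype.ext h)
      have hx : ∀ x ∈ S i, ∀ y ∈ S j, x ≠ y ∧ ¬ (I (κ i)).Adj x y := fun x hx y hy =>
        ⟨(hST i j hne' x hx y hy).1, fun h1 =>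
          (hST i j hne' x hx y hy).2 ((hadj x y).2 (Or.inr ⟨_, h1⟩))⟩
      have h1 := h i
      have h2 := h j
      rw [← hij] at h2
      have aa := hx _ (ha i) _ (ha j)
      have ab := hx _ (ha i) _ (hb j)
      have ba := hx _ (hb i) _ (ha j)
      have bb := hx _ (hb i) _ (hb j)
      rcases hI (κ i) _ _ _ _ h1 h2 with h3 | h3 | h3 | h3 | h3 | h3 | h3 | h3
      · exact aa.1 h3
      · exact ab.1 h3
      · exact ba.1 h3
      · exact bb.1 h3
      · exact aa.2 h3
      · exact ab.2 h3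
      · exact ba.2 h3
      · exact bb.2 h3
    simpa using Fintype.card_le_of_injective κ hinj
  have hedge : ∀ i, i ∉ A → ∀ x ∈ S i, ∀ y ∈ S i, G.Adj x y → H.Adj x y := by
    intro i hi x hx y hy hxy
    rcases (hadj x y).1 hxy with h1 | ⟨j, h1⟩
    · exact h1
    · exact absurd (Finset.mem_filter.2 ⟨Finset.mem_univ _, x, y, j, hx, hy, h1⟩) hi
  have hB : Aᶜ.card ≤ 1 := by
    rw [Finset.card_le_one]
    intro i hi j hj
    rw [Finset.mem_compl] at hi hj
    by_contra hij
    refine plane_pair H hH (S i) (S j) ?_ (fun h => hS i (bip_of_edges G H _ (hedge i hi) h))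
      (fun h => hS j (bip_of_edges G H _ (hedge j hj) h))
    intro x hx y hy
    have h1 := hST i j hij x hx y hy
    exact ⟨h1.1, fun h => h1.2 ((hadj x y).2 (Or.inl h))⟩
  have hcard := Finset.card_add_card_compl A
  rw [Fintype.card_fin] at hcard
  omega

theorem in_cotower {n d : ℕ} (G : SimpleGraph (Fin n)) (U : Set (Fin n))
    (hU : IsCoTower d (G.induce U)) : oddPackingIn G U ≤ d + 1 := by
  obtain ⟨S, hSU, hS⟩ := exists_oddPackingIn G U
  refine tower_packing (G.induce U) hU (fun i => {v : U | (v : Fin n) ∈ S i})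
    (fun i h => hS.1 i (bip_restrict G U _ (hSU _) h)) ?_
  intro i j hij u hu v hv
  have := hS.2 i j hij u hu v hv
  exact ⟨fun h => this.1 (congrArg Subtype.val h), fun h => this.2 h⟩

theorem oddPacking_cotower {n d : ℕ} (G : SimpleGraph (Fin n)) (hG : IsCoTower d G) :
    oddPacking G ≤ d + 1 := by
  rw [← oddPackingIn_univ]
  obtain ⟨S, hSU, hS⟩ := exists_oddPackingIn G Set.univ
  exact tower_packing G hG S hS.1 hS.2

/-- Maximum matching for towers. -/
theorem tower_reduction (d : ℕ) (T : ℕ → ℕ → ℕ)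
    (hT : ∀ n n' m m', n ≤ n' → m ≤ m' → T n m ≤ T n' m')
    (hP : ∃ P, Solves P (fun _ G => G.IsBipartite) (fun n G => T n G.edgeSet.ncard)) :
    ∃ P C, Solves P (fun _ G => IsCoTower d G) (fun n G =>
      C * (T (2 * n) (2 * G.edgeSet.ncard) +
        (Nat.log 2 n + 1) * (n + G.edgeSet.ncard + 1))) := by
  obtain ⟨P, C, h⟩ := odd_reduction T hT hP
  refine ⟨P, (d + 2) * C, h.mono (fun _ _ _ => trivial) fun n G hG => ?_⟩
  have h1 := oddPacking_cotower G hG
  have h2 : (oddPacking G + 1) * ((Nat.log 2 n + 1) * (n + G.edgeSet.ncard + 1)) ≤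
      (d + 2) * ((Nat.log 2 n + 1) * (n + G.edgeSet.ncard + 1)) :=
    Nat.mul_le_mul_right _ (by omega)
  have h3 : T (2 * n) (2 * G.edgeSet.ncard) ≤ (d + 2) * T (2 * n) (2 * G.edgeSet.ncard) :=
    Nat.le_mul_of_pos_left _ (by omega)
  calc C * (T (2 * n) (2 * G.edgeSet.ncard) +
        (oddPacking G + 1) * ((Nat.log 2 n + 1) * (n + G.edgeSet.ncard + 1)))
      ≤ C * ((d + 2) * T (2 * n) (2 * G.edgeSet.ncard) +
        (d + 2) * ((Nat.log 2 n + 1) * (n + G.edgeSet.ncard + 1))) :=
        Nat.mul_le_mul_left _ (Nat.add_le_add h3 h2)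
    _ = _ := by ring

end Vale.Agent.P305.H273
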